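import Vale.Agent.P064.NestFinal

/-!
# P064: the second Kahn–Kalai conjecture

For the thresholds `pc` and `pE` of the problem file (see `Vale.Agent.P064.Defs`), there is a
universal constant `C` such that `pc n H ≤ C * pE n H * log n` for all `n ≥ 2` and all graphs `H`
with at least one edge and at most `n` vertices; moreover `log n` may be replaced by
`1 + log e(H)`.
-/

namespace Vale.Agent.Results.P064.KahnKalai

open Vale.Agent.P064

theorem result : ∃ C : ℝ, 0 < C ∧ ∀ (n : ℕ), 2 ≤ n → ∀ (V : Type) [Fintype V]
    (H : SimpleGraph V), Fintype.card V ≤ n → H ≠ ⊥ →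
      pc n H ≤ C * pE n H * Real.log n ∧
      pc n H ≤ C * pE n H * (1 + Real.log H.edgeSet.ncard) :=
  main_log

end Vale.Agent.Results.P064.KahnKalai
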