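import Vale.Agent.P064.Final

/-!
# P064: `p̃_E = O(p_E log n)` and `p_c = O(p_E log² n)`

For the thresholds `pc`, `pE`, `ptE` of the problem file (see `Vale.Agent.P064.Defs`), there is a
universal constant `C` such that for all `n ≥ 2` and all graphs `H` with at least one edge and at
most `n` vertices, `ptE n H ≤ C log n · pE n H` and `pc n H ≤ C (log n)² · pE n H`; moreover
`log n` may be replaced by `1 + log e(H)`.
-/

namespace Vale.Agent.Results.P064.LogSquared

open Vale.Agent.P064

theorem result : ∃ C : ℝ, 0 < C ∧ ∀ (n : ℕ), 2 ≤ n → ∀ (V : Type) [Fintype V]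
    (H : SimpleGraph V), Fintype.card V ≤ n → H ≠ ⊥ →
      ptE n H ≤ C * Real.log n * pE n H ∧
      pc n H ≤ C * Real.log n ^ 2 * pE n H ∧
      ptE n H ≤ C * (1 + Real.log H.edgeSet.ncard) * pE n H ∧
      pc n H ≤ C * (1 + Real.log H.edgeSet.ncard) ^ 2 * pE n H :=
  main

end Vale.Agent.Results.P064.LogSquared
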